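import Mathlib

/-! The swap chain and its invariant law. -/

namespace Vale.Agent.P331

open Finset

variable {E : Type} [DecidableEq E]

/-- decision `(swap, accept)` -/
def dcs (B B' A P : Finset E) (e : E) (r : Bool) : Bool × Bool :=
  if e ∈ B' then
    if e ∈ B then (r, r)
    else if A ⊆ B' then (if (B' ∩ P).card < (B ∩ P).card then (true, true) else (r, r))
    else (false, false)
  else if e ∈ B then (r, false) else (false, false)

/-- invariant weight -/
noncomputable def wt (B P A : Finset E) : ℝ := if A ⊆ B ∩ P then (1 / 2) ^ (B ∩ P).card else 0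

/-- neighbouring bases -/
def Nb (B B' : Finset E) (e : E) : Prop :=
  B.card = B'.card ∧ (B.erase e ⊆ B' ∨ B'.erase e ⊆ B)

lemma Nb.symm {B B' : Finset E} {e : E} (h : Nb B B' e) : Nb B' B e := ⟨h.1.symm, h.2.symm⟩

lemma Nb.eq {B B' : Finset E} {e : E} (h : Nb B B' e) (he : e ∈ B ↔ e ∈ B') : B = B' := by
  have key : ∀ {B B' : Finset E}, B.card = B'.card → B.erase e ⊆ B' → (e ∈ B ↔ e ∈ B') →
      B = B' := by
    intro B B' h1 h2 h3
    refine eq_of_subset_of_card_le (fun x hx => ?_) h1.ge
    by_cases hx' : x = e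
    · subst hx'; exact h3.1 hx
    · exact h2 (mem_erase.2 ⟨hx', hx⟩)
  rcases h.2 with h2 | h2
  · exact key h.1 h2 he
  · exact (key h.1.symm h2 he.symm).symm

lemma Nb.sub {B B' : Finset E} {e : E} (h : Nb B B' e) (h1 : e ∉ B) (h2 : e ∈ B') :
    B'.erase e ⊆ B := by
  rcases h.2 with h3 | h3
  · rw [erase_eq_of_notMem h1] at h3
    have := eq_of_subset_of_card_le h3 h.1.ge
    exact absurd (this ▸ h2) h1
  · exact h3

lemma Nb.card {B B' P : Finset E} {e : E} (h : Nb B B' e) (h1 : e ∉ B) (h2 : e ∈ B')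
    (hP : e ∉ P) :
    (B' ∩ P).card ≤ (B ∩ P).card ∧ (B ∩ P).card ≤ (B' ∩ P).card + 1 := by
  have h3 := h.sub h1 h2
  constructor
  · refine card_le_card fun x hx => ?_
    rw [mem_inter] at hx ⊢
    exact ⟨h3 (mem_erase.2 ⟨fun h => hP (h ▸ hx.2), hx.1⟩), hx.2⟩
  · have h4 : B ∩ P ⊆ (B' ∩ P) ∪ (B \ B'.erase e) := by
      intro x hx
      rw [mem_inter] at hx
      by_cases h5 : x ∈ B'.erase e
      · exact mem_union_left _ (mem_inter.2 ⟨mem_of_mem_erase h5, hx.2⟩)
      · exact mem_union_right _ (mem_sdiff.2 ⟨hx.1, h5⟩)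
    have h6 := (card_le_card h4).trans (card_union_le _ _)
    rw [card_sdiff_of_subset h3, card_erase_of_mem h2, h.1] at h6
    have := card_pos.2 ⟨e, h2⟩
    omega

lemma wt_out {B P A : Finset E} {e : E} (h : e ∉ B) :
    wt B (insert e P) A = wt B P A ∧ wt B (insert e P) (insert e A) = 0 := by
  have e1 : B ∩ insert e P = B ∩ P := inter_insert_of_notMem h
  refine ⟨by rw [wt, wt, e1], ?_⟩
  rw [wt, if_neg]
  intro h1
  exact h (mem_inter.1 (h1 (mem_insert_self _ _))).1

lemma wt_in {B P A : Finset E} {e : E} (h : e ∈ B) (hP : e ∉ P) (hA : e ∉ A) :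
    wt B (insert e P) A = wt B P A / 2 ∧ wt B (insert e P) (insert e A) = wt B P A / 2 := by
  have e1 : B ∩ insert e P = insert e (B ∩ P) := inter_insert_of_mem h
  have e2 : e ∉ B ∩ P := fun h => hP (mem_inter.1 h).2
  have e3 : A ⊆ insert e (B ∩ P) ↔ A ⊆ B ∩ P := subset_insert_iff_of_notMem hA
  have e4 : insert e A ⊆ insert e (B ∩ P) ↔ A ⊆ B ∩ P := by
    rw [insert_subset_iff, e3]; simp
  simp only [wt, e1, e3, e4, card_insert_of_notMem e2, pow_succ]
  split_ifs <;> constructor <;> ring

lemma wt_mem {B P A : Finset E} {e : E} (hP : e ∉ P) : wt B P (insert e A) = 0 := by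
  rw [wt, if_neg]
  intro h1
  exact hP (mem_inter.1 (h1 (mem_insert_self _ _))).2

lemma local_mixed {B B' A P : Finset E} {e : E} (h : Nb B B' e) (hP : e ∉ P) (hA : e ∉ A)
    (h1 : e ∉ B) (h2 : e ∈ B') (G : Bool → Bool → ℝ) :
    wt B P A * ((G (dcs B B' A P e true).1 (dcs B B' A P e true).2 +
      G (dcs B B' A P e false).1 (dcs B B' A P e false).2) / 2) +
    wt B' P A * ((G (!(dcs B' B A P e true).1) (dcs B' B A P e true).2 +
      G (!(dcs B' B A P e false).1) (dcs B' B A P e false).2) / 2) =
    wt B (insert e P) A * G false false + wt B (insert e P) (insert e A) * G false true +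
    (wt B' (insert e P) A * G true false + wt B' (insert e P) (insert e A) * G true true) := by
  rw [(wt_out h1).1, (wt_out h1).2, (wt_in h2 hP hA).1, (wt_in h2 hP hA).2]
  obtain ⟨c1, c2⟩ := h.card h1 h2 hP
  have h3 := h.sub h1 h2
  simp only [dcs, h1, h2, if_true, if_false]
  by_cases h4 : A ⊆ B'
  · by_cases h5 : A ⊆ P
    · have h6 : A ⊆ B ∩ P := fun x hx =>
        mem_inter.2 ⟨h3 (mem_erase.2 ⟨fun h => hA (h ▸ hx), h4 hx⟩), h5 hx⟩
      have h7 : A ⊆ B' ∩ P := subset_inter h4 h5
      simp only [wt, h4, h6, h7, if_true]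
      by_cases h8 : (B' ∩ P).card < (B ∩ P).card
      · have h9 : (B ∩ P).card = (B' ∩ P).card + 1 := by omega
        simp only [h8, if_true, Bool.not_true, Bool.not_false]
        rw [h9, pow_succ]
        ring
      · have h9 : (B ∩ P).card = (B' ∩ P).card := by omega
        simp only [h8, if_false, Bool.not_true, Bool.not_false]
        rw [h9]
        ring
    · have h6 : ¬A ⊆ B ∩ P := fun h => h5 (h.trans inter_subset_right)
      have h7 : ¬A ⊆ B' ∩ P := fun h => h5 (h.trans inter_subset_right)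
      simp [wt, h6, h7]
  · have h7 : ¬A ⊆ B' ∩ P := fun h => h4 (h.trans inter_subset_left)
    simp only [wt, h4, h7, if_false]
    ring

lemma local_id {B B' A P : Finset E} {e : E} (h : Nb B B' e) (hP : e ∉ P) (hA : e ∉ A)
    (G : Bool → Bool → ℝ) :
    wt B P A * ((G (dcs B B' A P e true).1 (dcs B B' A P e true).2 +
      G (dcs B B' A P e false).1 (dcs B B' A P e false).2) / 2) +
    wt B' P A * ((G (!(dcs B' B A P e true).1) (dcs B' B A P e true).2 +
      G (!(dcs B' B A P e false).1) (dcs B' B A P e false).2) / 2) =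
    wt B (insert e P) A * G false false + wt B (insert e P) (insert e A) * G false true +
    (wt B' (insert e P) A * G true false + wt B' (insert e P) (insert e A) * G true true) := by
  by_cases h1 : e ∈ B <;> by_cases h2 : e ∈ B'
  · obtain rfl := h.eq (by simp [h1, h2])
    rw [(wt_in h2 hP hA).1, (wt_in h2 hP hA).2]
    simp only [dcs, h1, if_true, Bool.not_true, Bool.not_false]
    ring
  · have := local_mixed h.symm hP hA h2 h1 (fun a b => G (!a) b)
    simp only [Bool.not_not, Bool.not_true, Bool.not_false] at this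
    linarith
  · exact local_mixed h hP hA h1 h2 G
  · obtain rfl := h.eq (by simp [h1, h2])
    rw [(wt_out h1).1, (wt_out h1).2]
    simp only [dcs, h1, if_false, Bool.not_false]
    ring

/-- flip one coordinate -/
def fl (c : E → Bool) (e : E) : E → Bool := Function.update c e (!c e)

lemma fl_fl (c : E → Bool) (e : E) : fl (fl c e) e = c := by simp [fl]

lemma fl_ne (c : E → Bool) {e x : E} (h : x ≠ e) : fl c e x = c x := by simp [fl, h]

lemma fl_self (c : E → Bool) (e : E) : fl c e e = !c e := by simp [fl]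

/-- one step of the chain -/
def stp (β : (E → Bool) → Finset E) (P : Finset E) (e : E) (r : Bool)
    (s : (E → Bool) × Finset E) : (E → Bool) × Finset E :=
  (if (dcs (β s.1) (β (fl s.1 e)) s.2 P e r).1 then fl s.1 e else s.1,
    if (dcs (β s.1) (β (fl s.1 e)) s.2 P e r).2 then insert e s.2 else s.2)

/-- the chain along a list whose head is the latest arrival -/
def st (β : (E → Bool) → Finset E) (c ω : E → Bool) : List E → (E → Bool) × Finset E
  | [] => (c, ∅)
  | e :: l => stp β l.toFinset e (ω e) (st β c ω l)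

lemma st_fl (β : (E → Bool) → Finset E) (c ω : E → Bool) {e : E} {l : List E} (h : e ∉ l) :
    st β c (fl ω e) l = st β c ω l := by
  induction l with
  | nil => rfl
  | cons a l ih =>
    rw [List.mem_cons, not_or] at h
    rw [st, st, ih h.2, fl_ne _ (Ne.symm h.1)]

lemma st_fst (β : (E → Bool) → Finset E) (c ω : E → Bool) {e : E} {l : List E} (h : e ∉ l) :
    (st β c ω l).1 e = c e := by
  induction l with
  | nil => rfl
  | cons a l ih =>
    rw [List.mem_cons, not_or] at h
    rw [st, stp]
    dsimp only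
    split_ifs
    · rw [fl_ne _ h.1, ih h.2]
    · exact ih h.2

lemma st_snd_sub (β : (E → Bool) → Finset E) (c ω : E → Bool) (l : List E) :
    (st β c ω l).2 ⊆ l.toFinset := by
  induction l with
  | nil => simp [st]
  | cons a l ih =>
    rw [st, stp, List.toFinset_cons]
    dsimp only
    split_ifs
    · exact insert_subset_insert _ ih
    · exact ih.trans (subset_insert _ _)

lemma dcs_acc {B B' A P : Finset E} {e : E} {r : Bool} (h : (dcs B B' A P e r).2 = true) :
    (dcs B B' A P e r).1 = true := by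
  unfold dcs at h ⊢
  split_ifs at h ⊢ <;> simp_all

lemma st_acc (β : (E → Bool) → Finset E) (c ω : E → Bool) {l : List E} (hl : l.Nodup) :
    ∀ x ∈ (st β c ω l).2, (st β c ω l).1 x = !c x := by
  induction l with
  | nil => simp [st]
  | cons a l ih =>
    rw [List.nodup_cons] at hl
    intro x hx
    have hs := st_snd_sub β c ω l
    have hxa : ∀ x ∈ (st β c ω l).2, x ≠ a := fun x hx h =>
      hl.1 (h ▸ List.mem_toFinset.1 (hs hx))
    rw [st, stp] at hx ⊢
    dsimp only at hx ⊢
    by_cases h2 : (dcs (β (st β c ω l).1) (β (fl (st β c ω l).1 a)) (st β c ω l).2 l.toFinset a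
        (ω a)).2 = true
    · rw [if_pos h2, mem_insert] at hx
      rw [if_pos (dcs_acc h2)]
      rcases hx with rfl | hx
      · rw [fl_self, st_fst _ _ _ hl.1]
      · rw [fl_ne _ (hxa x hx), ih hl.2 x hx]
    · rw [if_neg h2] at hx
      split_ifs
      · rw [fl_ne _ (hxa x hx), ih hl.2 x hx]
      · exact ih hl.2 x hx

lemma st_sub {β : (E → Bool) → Finset E} (hβ : ∀ c e, Nb (β c) (β (fl c e)) e) (c ω : E → Bool)
    {l : List E} (hl : l.Nodup) : (st β c ω l).2 ⊆ β (st β c ω l).1 := by
  induction l with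
  | nil => simp [st]
  | cons a l ih =>
    rw [List.nodup_cons] at hl
    have hs := st_snd_sub β c ω l
    have ha : a ∉ (st β c ω l).2 := fun h => hl.1 (List.mem_toFinset.1 (hs h))
    have ih' := ih hl.2
    rw [st, stp]
    generalize st β c ω l = s at *
    have hn := hβ s.1 a
    dsimp only
    generalize ω a = r
    unfold dcs
    by_cases h1 : a ∈ β s.1 <;> by_cases h2 : a ∈ β (fl s.1 a)
    · have := hn.eq (by simp [h1, h2])
      cases r
      · simpa [h1, h2] using ih'
      · simp only [h1, h2, if_true]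
        exact insert_subset h2 (this ▸ ih')
    · have := hn.symm.sub h2 h1
      cases r
      · simpa [h1, h2] using ih'
      · simp only [h1, h2, if_true, if_false, Bool.false_eq_true]
        exact fun x hx => this (mem_erase.2 ⟨fun h => ha (h ▸ hx), ih' hx⟩)
    · simp only [h1, h2, if_true, if_false]
      split_ifs with h3 h4 <;> first | exact insert_subset h2 ‹_› | exact ih' | simp_all
    · simpa [h1, h2] using ih'

variable [Fintype E]

lemma sum_fl (e : E) (F : (E → Bool) → ℝ) : ∑ c, F (fl c e) = ∑ c, F c :=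
  Equiv.sum_comp (Function.Involutive.toPerm (fun c => fl c e) (fun c => fl_fl c e)) F

lemma sum_ins (e : E) (H : Finset E → ℝ) :
    ∑ A, H A = ∑ A ∈ univ.filter (e ∉ ·), (H A + H (insert e A)) := by
  rw [sum_add_distrib, ← sum_filter_add_sum_filter_not univ (e ∉ ·) H]
  congr 1
  symm
  refine sum_bij' (fun A _ => insert e A) (fun A _ => A.erase e) ?_ ?_ ?_ ?_ ?_
  · simp
  · simp
  · intro A hA
    exact erase_insert (by simpa using hA)
  · intro A hA
    exact insert_erase (by simpa using hA)
  · simp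

lemma inv_step {β : (E → Bool) → Finset E} (hβ : ∀ c e, Nb (β c) (β (fl c e)) e) {P : Finset E}
    {e : E} (hP : e ∉ P) (g : (E → Bool) × Finset E → ℝ) :
    ∑ c, ∑ A, wt (β c) P A * ((g (stp β P e true (c, A)) + g (stp β P e false (c, A))) / 2) =
      ∑ c, ∑ A, wt (β c) (insert e P) A * g (c, A) := by
  have two : ∀ F : (E → Bool) → ℝ, ∑ c, F c = (∑ c, (F c + F (fl c e))) / 2 := by
    intro F
    rw [sum_add_distrib, sum_fl]
    ring
  rw [two, two fun c => ∑ A, wt (β c) (insert e P) A * g (c, A)]
  congr 1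
  refine sum_congr rfl fun c _ => ?_
  rw [← sum_add_distrib, ← sum_add_distrib, sum_ins e, sum_ins e fun A =>
    wt (β c) (insert e P) A * g (c, A) + wt (β (fl c e)) (insert e P) A * g (fl c e, A)]
  refine sum_congr rfl fun A hA => ?_
  have hA' : e ∉ A := by simpa using hA
  have key := local_id (hβ c e) hP hA'
    (fun a b => g (if a then fl c e else c, if b then insert e A else A))
  rw [wt_mem hP, wt_mem hP]
  simp only [stp, fl_fl]
  simp only [Bool.false_eq_true, if_false, if_true] at key
  have e1 : ∀ a : Bool, (if (!a) = true then fl c e else c) = if a = true then c else fl c e := by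
    intro a; cases a <;> simp
  simp only [e1] at key
  linarith

theorem inv {β : (E → Bool) → Finset E} (hβ : ∀ c e, Nb (β c) (β (fl c e)) e) {l : List E}
    (hl : l.Nodup) (g : (E → Bool) × Finset E → ℝ) :
    ∑ c, ∑ ω, g (st β c ω l) =
      Fintype.card (E → Bool) * ∑ c, ∑ A, wt (β c) l.toFinset A * g (c, A) := by
  induction l generalizing g with
  | nil =>
    rw [mul_sum]
    refine sum_congr rfl fun c _ => ?_
    rw [sum_eq_single (∅ : Finset E)]
    · simp [st, wt]
    · intro A _ hA
      simp [wt, hA]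
    · simp
  | cons e l ih =>
    rw [List.nodup_cons] at hl
    rw [List.toFinset_cons, ← inv_step hβ (by simpa using hl.1), ← ih hl.2
      fun s => (g (stp β l.toFinset e true s) + g (stp β l.toFinset e false s)) / 2]
    refine sum_congr rfl fun c _ => ?_
    have two : ∀ F : (E → Bool) → ℝ, ∑ c, F c = (∑ c, (F c + F (fl c e))) / 2 := by
      intro F
      rw [sum_add_distrib, sum_fl]
      ring
    rw [two, sum_div]
    refine sum_congr rfl fun ω _ => ?_
    rw [st, st, st_fl _ _ _ hl.1, fl_self]
    cases ω e <;> simp [add_comm]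

lemma thin (B : Finset E) (w : E → ℝ) :
    ∑ A, wt B univ A * ∑ x ∈ A, w x = (∑ x ∈ B, w x) / 2 := by
  have e1 : ∑ A, wt B univ A * ∑ x ∈ A, w x =
      (1 / 2) ^ B.card * ∑ A ∈ B.powerset, ∑ x ∈ A, w x := by
    rw [mul_sum, ← sum_subset (subset_univ B.powerset)]
    · refine sum_congr rfl fun A hA => ?_
      simp [wt, mem_powerset.1 hA]
    · intro A _ hA
      simp [wt, mt mem_powerset.2 hA]
  rw [e1]
  clear e1
  induction B using Finset.induction_on with
  | empty => simp
  | insert a B ha ih =>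
    rw [sum_powerset_insert ha, card_insert_of_notMem ha, sum_insert ha, pow_succ]
    have : ∑ A ∈ B.powerset, ∑ x ∈ insert a A, w x =
        2 ^ B.card * w a + ∑ A ∈ B.powerset, ∑ x ∈ A, w x := by
      rw [sum_congr rfl fun A hA => sum_insert fun h => ha (mem_powerset.1 hA h),
        sum_add_distrib]
      simp
    rw [this]
    have h2 : ((1 : ℝ) / 2) ^ B.card * 2 ^ B.card = 1 := by rw [← mul_pow]; simp
    linear_combination ih + (w a / 2) * h2

theorem chain_value {β : (E → Bool) → Finset E} (hβ : ∀ c e, Nb (β c) (β (fl c e)) e)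
    {l : List E} (hl : l.Nodup) (hl' : ∀ e, e ∈ l) (w : Bool → E → ℝ) :
    ∑ c, ∑ ω, ∑ x ∈ (st β c ω l).2, w (!c x) x =
      Fintype.card (E → Bool) * ((∑ c, ∑ x ∈ β c, w (c x) x) / 2) := by
  have h1 := inv hβ hl fun s => ∑ x ∈ s.2, w (s.1 x) x
  have h2 : l.toFinset = univ := by ext x; simp [hl' x]
  simp only [h2, thin] at h1
  rw [sum_div, ← h1]
  refine sum_congr rfl fun c _ => sum_congr rfl fun ω _ => sum_congr rfl fun x hx => ?_
  rw [st_acc β c ω hl x hx]

end Vale.Agent.P331
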