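import Mathlib

/-! Definitions for the single-sample matroid prophet inequality. -/

namespace Vale.Agent.P331

open scoped NNReal

variable {E : Type} [Fintype E] [DecidableEq E]

open Classical in
/-- maximum weight of an independent set -/
noncomputable def opt (M : Matroid E) (v : E → ℝ≥0) : ℝ≥0 :=
  (Finset.univ.filter fun I : Finset E => M.Indep (I : Set E)).sup fun I => ∑ e ∈ I, v e

/-- The accepted set.  In `e :: l` the element `e` is the latest arrival and `l` lists the earlier
ones; the decision on `e` sees only the arrivals so far, with their values. -/
def run (acc : List (E × ℝ≥0) → Bool) (v : E → ℝ≥0) : List E → Finset E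
  | [] => ∅
  | e :: l =>
    if acc ((e :: l).map fun x => (x, v x)) then insert e (run acc v l) else run acc v l

end Vale.Agent.P331
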