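import Mathlib

/-! The greedy basis of a weighted finite matroid. -/

namespace Vale.Agent.P331

open Finset
open scoped NNReal

variable {E : Type} [Fintype E]

/-- strict order by weight, ties broken by a fixed numbering -/
def Gt (w : E → ℝ≥0) (y x : E) : Prop :=
  w x < w y ∨ (w x = w y ∧ Fintype.equivFin E x < Fintype.equivFin E y)

lemma Gt.trans {w : E → ℝ≥0} {x y z : E} (h1 : Gt w x y) (h2 : Gt w y z) : Gt w x z := by
  rcases h1 with h1 | ⟨h1, h1'⟩ <;> rcases h2 with h2 | ⟨h2, h2'⟩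
  · exact Or.inl (h2.trans h1)
  · exact Or.inl (h2 ▸ h1)
  · exact Or.inl (h1 ▸ h2)
  · exact Or.inr ⟨h2.trans h1, h2'.trans h1'⟩

lemma Gt.irrefl (w : E → ℝ≥0) (x : E) : ¬Gt w x x := by
  rintro (h | ⟨-, h⟩) <;> exact lt_irrefl _ h

lemma Gt.total (w : E → ℝ≥0) {x y : E} (h : x ≠ y) : Gt w x y ∨ Gt w y x := by
  rcases lt_trichotomy (w x) (w y) with h1 | h1 | h1
  · exact Or.inr (Or.inl h1)
  · rcases lt_trichotomy (Fintype.equivFin E x) (Fintype.equivFin E y) with h2 | h2 | h2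
    · exact Or.inr (Or.inr ⟨h1, h2⟩)
    · exact absurd ((Fintype.equivFin E).injective h2) h
    · exact Or.inl (Or.inr ⟨h1.symm, h2⟩)
  · exact Or.inl (Or.inl h1)

lemma Gt.le {w : E → ℝ≥0} {x y : E} (h : Gt w y x) : w x ≤ w y := by
  rcases h with h | ⟨h, -⟩
  · exact h.le
  · exact h.le

lemma Gt.wf (w : E → ℝ≥0) : WellFounded (Gt w) := by
  have : IsTrans E (Gt w) := ⟨fun _ _ _ => Gt.trans⟩
  have : Std.Irrefl (Gt w) := ⟨Gt.irrefl w⟩
  exact Finite.wellFounded_of_trans_of_irrefl _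

lemma Gt.wf' (w : E → ℝ≥0) : WellFounded (fun x y => Gt w y x) := by
  have : IsTrans E (fun x y => Gt w y x) := ⟨fun _ _ _ h1 h2 => Gt.trans h2 h1⟩
  have : Std.Irrefl (fun x y => Gt w y x) := ⟨Gt.irrefl w⟩
  exact Finite.wellFounded_of_trans_of_irrefl _

open Classical in
/-- the greedy basis -/
noncomputable def gb (M : Matroid E) (w : E → ℝ≥0) : Finset E :=
  univ.filter fun x => x ∉ M.closure {y | Gt w y x}

lemma mem_gb {M : Matroid E} {w : E → ℝ≥0} {x : E} :
    x ∈ gb M w ↔ x ∉ M.closure {y | Gt w y x} := by simp [gb]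

variable {M : Matroid E}

lemma mem_closure_gb (hM : M.E = Set.univ) (w : E → ℝ≥0) (x : E) :
    x ∈ M.closure {y | y ∈ gb M w ∧ (y = x ∨ Gt w y x)} := by
  induction x using (Gt.wf w).induction with
  | _ x ih =>
    by_cases hx : x ∈ gb M w
    · exact M.mem_closure_of_mem' ⟨hx, Or.inl rfl⟩ (by simp [hM])
    · rw [mem_gb, not_not] at hx
      refine Matroid.closure_subset_closure_of_subset_closure (fun y hy => ?_) hx
      refine M.closure_subset_closure ?_ (ih y hy)
      rintro z ⟨hz, rfl | hz'⟩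
      · exact ⟨hz, Or.inr hy⟩
      · exact ⟨hz, Or.inr (hz'.trans hy)⟩

lemma gb_indep (hM : M.E = Set.univ) (w : E → ℝ≥0) : M.Indep (gb M w : Set E) := by
  by_contra h
  have hd : M.Dep (gb M w : Set E) := ⟨h, by simp [hM]⟩
  obtain ⟨C, hC, hC'⟩ := hd.exists_isCircuit_subset
  obtain ⟨x, hx, hmin⟩ := (Gt.wf' w).has_min C hC'.nonempty
  have h1 := hC'.mem_closure_sdiff_singleton_of_mem hx
  have h2 : x ∈ gb M w := hC hx
  refine mem_gb.1 h2 (M.closure_subset_closure ?_ h1)
  rintro y ⟨hy, hyx⟩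
  rcases Gt.total w (show y ≠ x from hyx) with h3 | h3
  · exact h3
  · exact absurd h3 (hmin y hy)

lemma gb_base (hM : M.E = Set.univ) (w : E → ℝ≥0) : M.IsBase (gb M w : Set E) :=
  (gb_indep hM w).isBase_of_ground_subset_closure fun x _ =>
    M.closure_subset_closure (fun _ hy => hy.1) (mem_closure_gb hM w x)

lemma gb_card (hM : M.E = Set.univ) (w w' : E → ℝ≥0) : (gb M w).card = (gb M w').card := by
  have := (gb_base hM w).ncard_eq_ncard_of_isBase (gb_base hM w')
  simpa using this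

lemma gb_up [DecidableEq E] {w w' : E → ℝ≥0} {e : E} (h : ∀ x, x ≠ e → w x = w' x)
    (he : w e ≤ w' e) : (gb M w').erase e ⊆ gb M w := by
  intro x hx
  rw [mem_erase, mem_gb] at hx
  rw [mem_gb]
  refine fun h1 => hx.2 (M.closure_subset_closure ?_ h1)
  intro y hy
  simp only [Set.mem_ofPred_eq, Gt] at hy ⊢
  rw [← h x hx.1]
  by_cases hye : y = e
  · subst hye
    rcases hy with hy | ⟨hy, hy'⟩
    · exact Or.inl (hy.trans_le he)
    · rcases he.eq_or_lt with h2 | h2
      · exact Or.inr ⟨hy.trans h2, hy'⟩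
      · exact Or.inl (hy ▸ h2)
  · rw [← h y hye]; exact hy

lemma gb_opt [DecidableEq E] (hM : M.E = Set.univ) (w : E → ℝ≥0) (I : Finset E)
    (hI : M.Indep (I : Set E)) : ∑ x ∈ I, w x ≤ ∑ x ∈ gb M w, w x := by
  induction h : (I \ gb M w).card generalizing I with
  | zero =>
    rw [card_eq_zero, sdiff_eq_empty_iff_subset] at h
    exact sum_le_sum_of_subset h
  | succ n ih =>
    obtain ⟨x, hx⟩ : (I \ gb M w).Nonempty := by rw [← card_pos]; omega
    rw [mem_sdiff] at hx
    have h1 := hI.notMem_closure_sdiff_of_mem (e := x) hx.1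
    have h2 : ∃ y, y ∈ gb M w ∧ (y = x ∨ Gt w y x) ∧ y ∉ M.closure ((I : Set E) \ {x}) := by
      by_contra h3
      push Not at h3
      exact h1 (Matroid.closure_subset_closure_of_subset_closure
        (fun y hy => h3 y hy.1 hy.2) (mem_closure_gb hM w x))
    obtain ⟨y, hy1, hy2, hy3⟩ := h2
    have hyx : y ≠ x := fun h => hx.2 (h ▸ hy1)
    have hy4 : y ∉ (I : Set E) \ {x} := fun h => hy3 (M.mem_closure_of_mem' h (by simp [hM]))
    have hy5 : y ∉ I.erase x := fun h => hy4 ⟨(mem_erase.1 h).2, (mem_erase.1 h).1⟩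
    have hI' : M.Indep ((insert y (I.erase x) : Finset E) : Set E) := by
      have := ((hI.sdiff {x}).insert_indep_iff_of_notMem hy4).2 ⟨by simp [hM], hy3⟩
      simpa using this
    refine le_trans ?_ (ih _ hI' ?_)
    · rw [sum_insert hy5, ← add_sum_erase _ _ hx.1]
      have : w x ≤ w y := (hy2.resolve_left hyx).le
      gcongr
    · have : insert y (I.erase x) \ gb M w = (I \ gb M w).erase x := by
        ext z
        simp only [mem_sdiff, mem_insert, mem_erase]
        constructor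
        · rintro ⟨rfl | h4, h5⟩
          · exact absurd hy1 h5
          · exact ⟨h4.1, h4.2, h5⟩
        · rintro ⟨h4, h5, h6⟩
          exact ⟨Or.inr ⟨h4, h5⟩, h6⟩
      rw [this, card_erase_of_mem (mem_sdiff.2 hx), h]
      rfl

end Vale.Agent.P331
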