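import Vale.Agent.P331.Defs
import Vale.Agent.P331.Greedy
import Vale.Agent.P331.Chain

/-! The concrete rule and its link with the chain. -/

namespace Vale.Agent.P331

open Finset MeasureTheory
open scoped NNReal ENNReal

variable {E : Type} [Fintype E] [DecidableEq E] (M : Matroid E)

/-- state of the rule: reference weights and accepted set -/
noncomputable def cst (s : E → ℝ≥0) (r : E → Bool) : List (E × ℝ≥0) → (E → ℝ≥0) × Finset E
  | [] => (s, ∅)
  | x :: h =>
    (if (dcs (gb M (cst s r h).1) (gb M (Function.update (cst s r h).1 x.1 x.2)) (cst s r h).2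
        (h.map Prod.fst).toFinset x.1 (r x.1)).1 then Function.update (cst s r h).1 x.1 x.2
      else (cst s r h).1,
    if (dcs (gb M (cst s r h).1) (gb M (Function.update (cst s r h).1 x.1 x.2)) (cst s r h).2
        (h.map Prod.fst).toFinset x.1 (r x.1)).2 then insert x.1 (cst s r h).2
      else (cst s r h).2)

/-- the rule -/
noncomputable def acc (s : E → ℝ≥0) (r : E → Bool) : List (E × ℝ≥0) → Bool
  | [] => false
  | x :: h => decide (x.1 ∈ (cst M s r (x :: h)).2)

/-- coordinatewise choice -/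
def sel (p : (E → ℝ≥0) × (E → ℝ≥0)) (c : E → Bool) : E → ℝ≥0 :=
  fun x => if c x then p.1 x else p.2 x

/-- greedy bases of all choices -/
noncomputable def bs (p : (E → ℝ≥0) × (E → ℝ≥0)) (c : E → Bool) : Finset E := gb M (sel p c)

variable {M}

lemma bs_nb (hM : M.E = Set.univ) (p : (E → ℝ≥0) × (E → ℝ≥0)) (c : E → Bool) (e : E) :
    Nb (bs M p c) (bs M p (fl c e)) e := by
  have h : ∀ x, x ≠ e → sel p c x = sel p (fl c e) x := fun x hx => by simp [sel, fl_ne c hx]
  refine ⟨gb_card hM _ _, ?_⟩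
  rcases le_total (sel p c e) (sel p (fl c e) e) with h1 | h1
  · exact Or.inr (gb_up h h1)
  · exact Or.inl (gb_up (fun x hx => (h x hx).symm) h1)

lemma link (p : (E → ℝ≥0) × (E → ℝ≥0)) (c r : E → Bool) {l : List E} (hl : l.Nodup) :
    cst M (sel p c) r (l.map fun x => (x, sel p (fun y => !c y) x)) =
      (sel p (st (bs M p) c r l).1, (st (bs M p) c r l).2) := by
  induction l with
  | nil => rfl
  | cons e l ih =>
    rw [List.nodup_cons] at hl
    have h1 := st_fst (bs M p) c r hl.1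
    have h2 : Function.update (sel p (st (bs M p) c r l).1) e (sel p (fun y => !c y) e) =
        sel p (fl (st (bs M p) c r l).1 e) := by
      ext x
      by_cases hx : x = e
      · subst hx
        simp [sel, fl_self, h1]
      · simp [sel, fl_ne _ hx, hx]
    have h3 : ((l.map fun x => (x, sel p (fun y => !c y) x)).map Prod.fst) = l := by
      simp [List.map_map, Function.comp_def]
    rw [List.map_cons, cst, ih hl.2, h3, st, stp]
    dsimp only
    rw [h2, apply_ite (sel p)]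
    rfl

lemma run_eq (p : (E → ℝ≥0) × (E → ℝ≥0)) (c r : E → Bool) {l : List E} (hl : l.Nodup) :
    run (acc M (sel p c) r) (sel p fun y => !c y) l = (st (bs M p) c r l).2 := by
  induction l with
  | nil => rfl
  | cons e l ih =>
    have h0 := link (M := M) p c r hl
    rw [List.nodup_cons] at hl
    have h1 : e ∉ (st (bs M p) c r l).2 := fun h =>
      hl.1 (List.mem_toFinset.1 (st_snd_sub _ _ _ _ h))
    rw [run, ih hl.2]
    rw [List.map_cons] at h0 ⊢
    rw [acc, h0, st, stp]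
    dsimp only
    split_ifs with h2 h3 h3 <;> simp_all

omit [Fintype E] [DecidableEq E] in
lemma sel_true (p : (E → ℝ≥0) × (E → ℝ≥0)) : sel p (fun _ => true) = p.1 := rfl

omit [Fintype E] [DecidableEq E] in
lemma sel_false (p : (E → ℝ≥0) × (E → ℝ≥0)) : sel p (fun _ => !true) = p.2 := rfl

lemma run_eq' (s v : E → ℝ≥0) (r : E → Bool) {l : List E} (hl : l.Nodup) :
    run (acc M s r) v l = (st (bs M (s, v)) (fun _ => true) r l).2 :=
  run_eq (s, v) (fun _ => true) r hl

lemma run_indep (hM : M.E = Set.univ) (s v : E → ℝ≥0) (r : E → Bool) {l : List E}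
    (hl : l.Nodup) : M.Indep (run (acc M s r) v l : Set E) := by
  rw [run_eq' s v r hl]
  exact (gb_indep hM _).subset (coe_subset.2 (st_sub (bs_nb hM (s, v)) _ r hl))

omit [Fintype E] [DecidableEq E] in
lemma meas_sel (c : E → Bool) (x : E) :
    Measurable fun p : (E → ℝ≥0) × (E → ℝ≥0) => sel p c x := by
  unfold sel
  split_ifs <;> fun_prop

omit [DecidableEq E] in
lemma meas_bs {Y : Type} [MeasurableSpace Y] (Φ : ((E → Bool) → Finset E) → Y) :
    Measurable fun p : (E → ℝ≥0) × (E → ℝ≥0) => Φ (bs M p) := by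
  classical
  let rel : (E → ℝ≥0) × (E → ℝ≥0) → (E → Bool) → E → E → Prop :=
    fun p c y x => Gt (sel p c) y x
  have h1 : Measurable rel := by
    refine measurable_pi_lambda _ fun c => measurable_pi_lambda _ fun y =>
      measurable_pi_lambda _ fun x => ?_
    refine measurableSet_setOfPred.1 ?_
    exact (measurableSet_lt (meas_sel c x) (meas_sel c y)).union
      ((measurableSet_eq_fun (meas_sel c x) (meas_sel c y)).inter (MeasurableSet.const _))
  let Ψ : ((E → Bool) → E → E → Prop) → (E → Bool) → Finset E :=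
    fun ρ c => univ.filter fun x => x ∉ M.closure {y | ρ c y x}
  have h2 : Measurable fun ρ => Φ (Ψ ρ) := Measurable.of_discrete
  exact h2.comp h1

lemma meas_acc (r : E → Bool) {l : List E} (hl : l.Nodup) :
    Measurable fun p : (E → ℝ≥0) × (E → ℝ≥0) => acc M p.1 r (l.map fun x => (x, p.2 x)) := by
  cases l with
  | nil => exact measurable_const
  | cons e l =>
    have : ∀ p : (E → ℝ≥0) × (E → ℝ≥0), acc M p.1 r ((e :: l).map fun x => (x, p.2 x)) =
        decide (e ∈ (st (bs M p) (fun _ => true) r (e :: l)).2) := by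
      intro p
      have h0 := link (M := M) p (fun _ => true) r hl
      rw [sel_true, sel_false] at h0
      rw [List.map_cons] at h0 ⊢
      rw [acc, h0]
    simp only [this]
    exact meas_bs fun β => decide (e ∈ (st β (fun _ => true) r (e :: l)).2)

omit [Fintype E] [DecidableEq E] in
lemma meas_fib [Countable E] {X Y : Type} [MeasurableSpace X] [MeasurableSpace Y]
    (π : X → List E) (hπ : ∀ l, MeasurableSet {p | π p = l}) (H : List E → X → Y)
    (hH : ∀ l, Measurable (H l)) : Measurable fun p => H (π p) p := by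
  intro s hs
  have : (fun p => H (π p) p) ⁻¹' s = ⋃ l, {p | π p = l} ∩ H l ⁻¹' s := by
    ext p; simp
  rw [this]
  exact MeasurableSet.iUnion fun l => (hπ l).inter (hH l hs)

lemma meas_val (r : E → Bool) (l : List E) :
    Measurable fun p : (E → ℝ≥0) × (E → ℝ≥0) =>
      ∑ x ∈ (st (bs M p) (fun _ => true) r l).2, p.2 x := by
  have : ∀ p : (E → ℝ≥0) × (E → ℝ≥0), ∑ x ∈ (st (bs M p) (fun _ => true) r l).2, p.2 x =
      ∑ x, (if x ∈ (st (bs M p) (fun _ => true) r l).2 then (1 : ℝ≥0) else 0) * p.2 x := by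
    intro p
    simp [sum_ite_mem]
  simp only [this]
  refine Finset.measurable_sum _ fun x _ => Measurable.mul ?_ (by fun_prop)
  exact meas_bs fun β => if x ∈ (st β (fun _ => true) r l).2 then (1 : ℝ≥0) else 0

omit [DecidableEq E] in
lemma cont_opt : Continuous (opt M) := by
  unfold opt
  exact Continuous.finset_sup_apply fun I _ => by fun_prop

lemma opt_le (hM : M.E = Set.univ) (w : E → ℝ≥0) : opt M w ≤ ∑ x ∈ gb M w, w x := by
  unfold opt
  exact Finset.sup_le fun I hI => gb_opt hM w I (by simpa using hI)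

/-- coordinatewise swap -/
def sw (c : E → Bool) (p : (E → ℝ≥0) × (E → ℝ≥0)) : (E → ℝ≥0) × (E → ℝ≥0) :=
  (sel p c, sel p fun y => !c y)

omit [DecidableEq E] in
lemma sw_mp (D : E → Measure ℝ≥0) [∀ e, IsProbabilityMeasure (D e)] (c : E → Bool) :
    MeasurePreserving (sw c) ((Measure.pi D).prod (Measure.pi D))
      ((Measure.pi D).prod (Measure.pi D)) := by
  have h1 := measurePreserving_arrowProdEquivProdArrow ℝ≥0 ℝ≥0 E D D
  have h2 := measurePreserving_pi (fun i => (D i).prod (D i)) (fun i => (D i).prod (D i))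
    (f := fun i => if c i then id else Prod.swap) (fun i => by
      split_ifs
      · exact MeasurePreserving.id _
      · exact Measure.measurePreserving_swap)
  convert h1.comp (h2.comp h1.symm) using 1
  ext p x <;> simp only [sw, sel, Function.comp, MeasurableEquiv.arrowProdEquivProdArrow] <;>
    by_cases h : c x = true <;> simp [h]

omit [Fintype E] [DecidableEq E] in
lemma sw_inf (c : E → Bool) (p : (E → ℝ≥0) × (E → ℝ≥0)) :
    ((sw c p).1 ⊓ (sw c p).2, (sw c p).1 ⊔ (sw c p).2) = (p.1 ⊓ p.2, p.1 ⊔ p.2) := by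
  ext x <;> simp only [sw, sel, Pi.inf_apply, Pi.sup_apply] <;> by_cases h : c x = true <;>
    simp [h, inf_comm, sup_comm]

lemma pointwise (hM : M.E = Set.univ) (p : (E → ℝ≥0) × (E → ℝ≥0)) {l : List E} (hl : l.Nodup)
    (hl' : ∀ e, e ∈ l) :
    (Fintype.card (E → Bool) : ℝ≥0) * ∑ c, opt M (sw c p).1 ≤
      2 * ∑ c, ∑ r, ∑ x ∈ run (acc M (sw c p).1 r) (sw c p).2 l, (sw c p).2 x := by
  have h := chain_value (bs_nb hM p) hl hl' fun b x => ((if b then p.1 x else p.2 x : ℝ≥0) : ℝ)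
  simp only [sw, run_eq p _ _ hl]
  have h2 : ∑ c, opt M (sel p c) ≤ ∑ c, ∑ x ∈ bs M p c, sel p c x :=
    sum_le_sum fun c _ => opt_le hM _
  refine le_trans (mul_le_mul_right h2 _) (le_of_eq ?_)
  apply NNReal.coe_injective
  push_cast
  simp only [sel]
  rw [h]
  ring

theorem guarantee (hM : M.E = Set.univ) (D : E → Measure ℝ≥0) [∀ e, IsProbabilityMeasure (D e)]
    (π : (E → ℝ≥0) × (E → ℝ≥0) → List E) (hπ : ∀ p, (π p).Nodup ∧ ∀ e, e ∈ π p)
    (hm : ∀ l, MeasurableSet {p | π p = l}) :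
    ∫⁻ v, (opt M v : ℝ≥0∞) ∂(Measure.pi D) ≤
      2 * ∫⁻ q : ((E → ℝ≥0) × (E → ℝ≥0)) × (E → Bool),
        ((∑ e ∈ run (acc M q.1.1 q.2) q.1.2 (π (q.1.1 ⊓ q.1.2, q.1.1 ⊔ q.1.2)), q.1.2 e : ℝ≥0) :
          ℝ≥0∞) ∂(((Measure.pi D).prod (Measure.pi D)).prod
            (ProbabilityTheory.uniformOn Set.univ)) := by
  set μ := (Measure.pi D).prod (Measure.pi D) with hμ
  set F : (E → ℝ≥0) × (E → ℝ≥0) → (E → Bool) → ℝ≥0 := fun p r =>
    ∑ e ∈ run (acc M p.1 r) p.2 (π (p.1 ⊓ p.2, p.1 ⊔ p.2)), p.2 e with hF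
  have hFm : ∀ r, Measurable fun p => F p r := by
    intro r
    have h1 : Measurable fun p : (E → ℝ≥0) × (E → ℝ≥0) => (p.1 ⊓ p.2, p.1 ⊔ p.2) := by
      refine Measurable.prodMk (measurable_pi_lambda _ fun x => ?_)
        (measurable_pi_lambda _ fun x => ?_)
      · exact Measurable.min (f := fun p : (E → ℝ≥0) × (E → ℝ≥0) => p.1 x)
          (g := fun p => p.2 x) (by fun_prop) (by fun_prop)
      · exact Measurable.max (f := fun p : (E → ℝ≥0) × (E → ℝ≥0) => p.1 x)
          (g := fun p => p.2 x) (by fun_prop) (by fun_prop)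
    have h2 := meas_fib (fun p : (E → ℝ≥0) × (E → ℝ≥0) => π (p.1 ⊓ p.2, p.1 ⊔ p.2))
      (fun l => h1 (hm l)) _
      (fun l => meas_val (M := M) r l)
    convert h2 using 2 with p
    simp only [hF]
    rw [run_eq' _ _ _ (hπ _).1]
  set N : ℝ≥0∞ := ((Fintype.card (E → Bool) : ℕ) : ℝ≥0∞) with hN
  have hN0 : N ≠ 0 := by simp [hN]
  have hN1 : N ≠ ⊤ := by simp [hN]
  set Φ : (E → ℝ≥0) × (E → ℝ≥0) → ℝ≥0∞ := fun p => ((∑ r, F p r : ℝ≥0) : ℝ≥0∞) with hΦ
  have hΦm : Measurable Φ := (Finset.measurable_sum _ fun r _ => hFm r).coe_nnreal_ennreal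
  have h1 : ∫⁻ q : ((E → ℝ≥0) × (E → ℝ≥0)) × (E → Bool), (F q.1 q.2 : ℝ≥0∞)
      ∂(μ.prod (ProbabilityTheory.uniformOn Set.univ)) = (∫⁻ p, Φ p ∂μ) * N⁻¹ := by
    rw [lintegral_prod _ (measurable_from_prod_countable_left
      fun r => (hFm r).coe_nnreal_ennreal).aemeasurable, ← lintegral_mul_const _ hΦm]
    refine lintegral_congr fun p => ?_
    rw [lintegral_fintype]
    simp only [hΦ, ProbabilityTheory.uniformOn_univ, Measure.count_singleton, one_div]
    rw [ENNReal.ofNNReal_finsetSum, sum_mul]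
  have h2 : N * (N * ∫⁻ v, (opt M v : ℝ≥0∞) ∂(Measure.pi D)) ≤ N * (2 * ∫⁻ p, Φ p ∂μ) := by
    have hom : Measurable fun v => (opt M v : ℝ≥0∞) := cont_opt.measurable.coe_nnreal_ennreal
    have e1 : ∀ c, ∫⁻ v, (opt M v : ℝ≥0∞) ∂(Measure.pi D) =
        ∫⁻ p, (opt M (sw c p).1 : ℝ≥0∞) ∂μ := fun c =>
      ((measurePreserving_fst.comp (sw_mp D c)).lintegral_comp hom).symm
    have e2 : ∀ c, ∫⁻ p, Φ p ∂μ = ∫⁻ p, Φ (sw c p) ∂μ := fun c =>
      ((sw_mp D c).lintegral_comp hΦm).symm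
    have e3 : N * ∫⁻ v, (opt M v : ℝ≥0∞) ∂(Measure.pi D) =
        ∫⁻ p, ∑ c, (opt M (sw c p).1 : ℝ≥0∞) ∂μ := by
      rw [lintegral_finsetSum (f := fun c p => (opt M (sw c p).1 : ℝ≥0∞)) _
        fun c _ => hom.comp (measurable_fst.comp (sw_mp D c).measurable)]
      simp only [← e1]
      simp [hN]
    have e4 : N * ∫⁻ p, Φ p ∂μ = ∫⁻ p, ∑ c, Φ (sw c p) ∂μ := by
      rw [lintegral_finsetSum (f := fun c p => Φ (sw c p)) _
        fun c _ => hΦm.comp (sw_mp D c).measurable]
      simp only [← e2]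
      simp [hN]
    rw [e3, mul_left_comm, e4, ← lintegral_const_mul' _ _ hN1,
      ← lintegral_const_mul' _ _ ENNReal.ofNat_ne_top]
    refine lintegral_mono fun p => ?_
    have := pointwise hM p (hπ (p.1 ⊓ p.2, p.1 ⊔ p.2)).1 (hπ (p.1 ⊓ p.2, p.1 ⊔ p.2)).2
    simp only [hΦ, hF, sw_inf, hN]
    have h4 := ENNReal.coe_le_coe.2 this
    rw [ENNReal.coe_mul, ENNReal.coe_mul, ENNReal.coe_natCast, ENNReal.coe_ofNat] at h4
    simpa only [ENNReal.ofNNReal_finsetSum] using h4
  have h3 := (ENNReal.mul_le_mul_iff_right hN0 hN1).1 h2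
  show _ ≤ 2 * ∫⁻ q : ((E → ℝ≥0) × (E → ℝ≥0)) × (E → Bool), (F q.1 q.2 : ℝ≥0∞)
      ∂(μ.prod (ProbabilityTheory.uniformOn Set.univ))
  rw [h1, ← mul_assoc, ← div_eq_mul_inv, ENNReal.le_div_iff_mul_le (Or.inl hN0) (Or.inl hN1),
    mul_comm]
  exact h3

end Vale.Agent.P331
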